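import Mathlib
import Crest.Prelude.Def_ProductShift

/-!
Row 113, S0151, abstract determinant module (helper46): for a quasinilpotent operator `T` in a closed
*-algebra on which the vector state of `ξ` is a trace, with `⟨ξ, T^n ξ⟩ = 0` for `n ≥ 1`,
`vectorDet ξ (T - z) = ‖z‖` for all `z ≠ 0`.
-/

set_option autoImplicit false
open Filter Topology Polynomial
open Crest.AnalysisR.ProductShift

namespace Crest.Agent.R113.DQ

/-! ### scalar approximation -/

/-- antiderivative of a polynomial -/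
noncomputable def integ (q : ℝ[X]) : ℝ[X] :=
  q.sum fun n a => monomial (n + 1) (a / ((n : ℝ) + 1))

theorem derivative_integ (q : ℝ[X]) : derivative (integ q) = q := by
  unfold integ
  rw [Polynomial.sum_def, derivative_sum]
  conv_rhs => rw [← Polynomial.sum_monomial_eq q, Polynomial.sum_def]
  refine Finset.sum_congr rfl (fun n _ => ?_)
  rw [derivative_monomial]
  have : ((n : ℝ) + 1) ≠ 0 := by positivity
  simp only [Nat.add_sub_cancel]
  congr 1
  push_cast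
  field_simp

theorem exists_log_poly (m M δ : ℝ) (hm : 0 < m) (hmM : m ≤ M) (hδ : 0 < δ) :
    ∃ p : ℝ[X], (∀ x ∈ Set.Icc m M, |(derivative p).eval x - x⁻¹| ≤ δ) ∧
      (∀ x ∈ Set.Icc m M, |p.eval x - Real.log x| ≤ δ * (M - m)) := by
  have hcont : ContinuousOn (fun x : ℝ => x⁻¹) (Set.Icc m M) :=
    continuousOn_inv₀.mono (fun x hx => (lt_of_lt_of_le hm hx.1).ne')
  obtain ⟨q, hq⟩ := exists_polynomial_near_of_continuousOn m M (fun x : ℝ => x⁻¹) hcont δ hδ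
  refine ⟨integ q + C (Real.log m - (integ q).eval m), ?_, ?_⟩
  · intro x hx
    rw [derivative_add, derivative_C, add_zero, derivative_integ]
    exact (hq x hx).le
  · intro x hx
    have h1 := Convex.norm_image_sub_le_of_norm_hasDerivWithin_le (𝕜 := ℝ)
      (f := fun x : ℝ => (integ q + C (Real.log m - (integ q).eval m)).eval x - Real.log x)
      (f' := fun x : ℝ => q.eval x - x⁻¹) (s := Set.Icc m M) (C := δ) (x := m) (y := x)
      (by
        intro y hy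
        have hy0 : y ≠ 0 := (lt_of_lt_of_le hm hy.1).ne'
        have h2 := ((integ q + C (Real.log m - (integ q).eval m)).hasDerivAt y)
        rw [derivative_add, derivative_C, add_zero, derivative_integ] at h2
        exact (h2.sub (Real.hasDerivAt_log hy0)).hasDerivWithinAt)
      (by
        intro y hy
        exact (hq y hy).le)
      (convex_Icc m M) (Set.left_mem_Icc.2 hmM) hx
    have h3 : (integ q + C (Real.log m - (integ q).eval m)).eval m - Real.log m = 0 := by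
      simp
    rw [h3, sub_zero] at h1
    refine h1.trans ?_
    rw [Real.norm_of_nonneg (by linarith [hx.1])]
    exact mul_le_mul_of_nonneg_left (by linarith [hx.2]) hδ.le

/-! ### the vector functional -/

variable {H : Type*} [NormedAddCommGroup H] [InnerProductSpace ℂ H] [CompleteSpace H]

/-- the vector functional `A ↦ ⟨ξ, A ξ⟩` -/
noncomputable def tau (ξ : H) : (H →L[ℂ] H) →L[ℂ] ℂ :=
  (innerSL ℂ ξ).comp (ContinuousLinearMap.apply ℂ H ξ)

theorem tau_apply (ξ : H) (A : H →L[ℂ] H) : tau ξ A = inner ℂ ξ (A ξ) := rfl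

theorem tau_star (ξ : H) (A : H →L[ℂ] H) : tau ξ (star A) = (starRingEnd ℂ) (tau ξ A) := by
  rw [tau_apply, tau_apply, ContinuousLinearMap.star_eq_adjoint,
    ContinuousLinearMap.adjoint_inner_right, inner_conj_symm]

theorem norm_tau_le (ξ : H) (hξ : ‖ξ‖ = 1) (A : H →L[ℂ] H) : ‖tau ξ A‖ ≤ ‖A‖ := by
  rw [tau_apply]
  calc ‖inner ℂ ξ (A ξ)‖ ≤ ‖ξ‖ * ‖A ξ‖ := norm_inner_le_norm _ _
    _ ≤ 1 * (‖A‖ * ‖ξ‖) := by
        rw [hξ]
        exact mul_le_mul_of_nonneg_left ((A.le_opNorm ξ).trans (by rw [hξ])) zero_le_one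
    _ = ‖A‖ := by rw [hξ]; ring

theorem tau_re_nonneg (ξ : H) (A : H →L[ℂ] H) (hA : 0 ≤ A) : 0 ≤ (tau ξ A).re := by
  rw [ContinuousLinearMap.nonneg_iff_isPositive] at hA
  rw [tau_apply]
  exact hA.re_inner_nonneg_right ξ

theorem tau_re_mono (ξ : H) (A B : H →L[ℂ] H) (hAB : A ≤ B) : (tau ξ A).re ≤ (tau ξ B).re := by
  have h := tau_re_nonneg ξ (B - A) (sub_nonneg.2 hAB)
  rw [map_sub, Complex.sub_re] at h
  linarith

/-! ### derivative of the trace of a polynomial -/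

theorem hasDerivAt_tau_poly (ξ : H) (B : ℝ → (H →L[ℂ] H)) (B' : H →L[ℂ] H) (s : ℝ)
    (hB : HasDerivAt B B' s)
    (htr : ∀ i j : ℕ, tau ξ ((B s) ^ i * B' * (B s) ^ j) = tau ξ ((B s) ^ (i + j) * B'))
    (p : ℝ[X]) :
    HasDerivAt (fun t => tau ξ (aeval (B t) p)) (tau ξ (aeval (B s) (derivative p) * B')) s := by
  induction p using Polynomial.induction_on' with
  | add p q hp hq =>
    have h := hp.add hq
    have e1 : (fun t => tau ξ (aeval (B t) (p + q))) =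
        (fun t => tau ξ (aeval (B t) p)) + (fun t => tau ξ (aeval (B t) q)) := by
      funext t
      simp
    have e2 : tau ξ (aeval (B s) (derivative (p + q)) * B') =
        tau ξ (aeval (B s) (derivative p) * B') + tau ξ (aeval (B s) (derivative q) * B') := by
      simp [add_mul]
    rw [e1, e2]
    exact h
  | monomial n a =>
    have h1 := hB.pow' n
    have h2 : HasDerivAt (fun t => tau ξ (a • (B t) ^ n))
        (tau ξ (a • ∑ i ∈ Finset.range n, (B s) ^ (n.pred - i) * B' * (B s) ^ i)) s := by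
      have h3 : HasDerivAt (fun t => a • (B t) ^ n)
          (a • ∑ i ∈ Finset.range n, (B s) ^ (n.pred - i) * B' * (B s) ^ i) s :=
        h1.const_smul a
      exact ((tau ξ).restrictScalars ℝ).hasFDerivAt.comp_hasDerivAt s h3
    have e1 : (fun t => tau ξ (aeval (B t) (monomial n a))) = fun t => tau ξ (a • (B t) ^ n) := by
      funext t
      rw [aeval_monomial, Algebra.smul_def]
    have e2 : tau ξ (aeval (B s) (derivative (monomial n a)) * B') =
        tau ξ (a • ∑ i ∈ Finset.range n, (B s) ^ (n.pred - i) * B' * (B s) ^ i) := by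
      have e3 : ∀ (r : ℝ) (X : H →L[ℂ] H), tau ξ (r • X) = r • tau ξ X := fun r X =>
        ((tau ξ).restrictScalars ℝ).map_smul r X
      rw [e3, map_sum, derivative_monomial, aeval_monomial]
      have e4 : ∀ i ∈ Finset.range n, tau ξ ((B s) ^ (n.pred - i) * B' * (B s) ^ i) =
          tau ξ ((B s) ^ (n - 1) * B') := by
        intro i hi
        rw [htr]
        have : n.pred - i + i = n - 1 := by
          have := Finset.mem_range.1 hi
          simp only [Nat.pred_eq_sub_one]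
          omega
        rw [this]
      rw [Finset.sum_congr rfl e4, Finset.sum_const, Finset.card_range, mul_assoc,
        ← Algebra.smul_def, e3, mul_smul, Nat.cast_smul_eq_nsmul]
    rw [e1, e2]
    exact h2

/-! ### the Neumann series -/

theorem summable_norm_pow (T : H →L[ℂ] H)
    (hq : Tendsto (fun n : ℕ => ‖T ^ n‖ ^ (1 / (n : ℝ))) atTop (𝓝 0)) (r : ℝ) (hr : 0 < r) :
    Summable (fun n : ℕ => ‖T ^ n‖ / r ^ n) := by
  have h1 : ∀ᶠ n : ℕ in atTop, ‖T ^ n‖ ≤ (r / 2) ^ n := by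
    filter_upwards [hq.eventually_lt_const (show (0 : ℝ) < r / 2 by positivity),
      eventually_ge_atTop 1] with n hn hn1
    have hn0 : (n : ℝ) ≠ 0 := by
      have : (1 : ℝ) ≤ n := by exact_mod_cast hn1
      positivity
    have h2 := Real.rpow_le_rpow (Real.rpow_nonneg (norm_nonneg (T ^ n)) _) hn.le
      (Nat.cast_nonneg n)
    rw [← Real.rpow_mul (norm_nonneg _), one_div, inv_mul_cancel₀ hn0, Real.rpow_one,
      Real.rpow_natCast] at h2
    exact h2
  refine Summable.of_norm_bounded_eventually_nat (g := fun n : ℕ => (1 / 2 : ℝ) ^ n)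
    (summable_geometric_of_lt_one (by norm_num) (by norm_num)) ?_
  filter_upwards [h1] with n hn
  rw [Real.norm_of_nonneg (by positivity), div_le_iff₀ (by positivity), ← mul_pow]
  calc ‖T ^ n‖ ≤ (r / 2) ^ n := hn
    _ = (1 / 2 * r) ^ n := by congr 1; ring

/-- the data of the Neumann series -/
theorem neumann (ξ : H) (𝒜 : StarSubalgebra ℂ (H →L[ℂ] H))
    (hcl : IsClosed (𝒜 : Set (H →L[ℂ] H))) (T : H →L[ℂ] H) (hT : T ∈ 𝒜)
    (hq : Tendsto (fun n : ℕ => ‖T ^ n‖ ^ (1 / (n : ℝ))) atTop (𝓝 0))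
    (h0 : ∀ n, 1 ≤ n → tau ξ (T ^ n) = 0) (z : ℂ) (hz : z ≠ 0) :
    ∃ K : ℝ, 0 < K ∧ ∀ s ∈ Set.Icc (0 : ℝ) 1, ∃ R : H →L[ℂ] H, R ∈ 𝒜 ∧ ‖R‖ ≤ K ∧
      (z • (1 : H →L[ℂ] H) - (s : ℂ) • T) * R = 1 ∧ R * (z • (1 : H →L[ℂ] H) - (s : ℂ) • T) = 1 ∧
      tau ξ (T * R) = 0 ∧ tau ξ (R * T) = 0 := by
  have hz' : 0 < ‖z‖ := norm_pos_iff.2 hz
  have hsum := summable_norm_pow T hq ‖z‖ hz'
  refine ⟨‖z‖⁻¹ * (∑' n : ℕ, ‖T ^ n‖ / ‖z‖ ^ n) + 1, ?_, ?_⟩
  · have : 0 ≤ (∑' n : ℕ, ‖T ^ n‖ / ‖z‖ ^ n) := tsum_nonneg (fun n => by positivity)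
    positivity
  intro s hs
  set X : H →L[ℂ] H := ((s : ℂ) / z) • T with hX
  have hXn : ∀ n, X ^ n = ((s : ℂ) / z) ^ n • T ^ n := fun n => by rw [hX, _root_.smul_pow]
  have hbound : ∀ n, ‖X ^ n‖ ≤ ‖T ^ n‖ / ‖z‖ ^ n := by
    intro n
    rw [hXn, norm_smul, norm_pow, norm_div, Complex.norm_real, Real.norm_of_nonneg hs.1, div_pow,
      div_mul_eq_mul_div]
    refine div_le_div_of_nonneg_right ?_ (by positivity)
    calc s ^ n * ‖T ^ n‖ ≤ 1 * ‖T ^ n‖ :=
          mul_le_mul_of_nonneg_right (pow_le_one₀ hs.1 hs.2) (norm_nonneg _)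
      _ = ‖T ^ n‖ := one_mul _
  have hnorm : Summable (fun n => ‖X ^ n‖) :=
    Summable.of_nonneg_of_le (fun n => norm_nonneg _) hbound hsum
  have hs1 : Summable (fun n => X ^ n) := hnorm.of_norm
  have hz1 : z • (1 : H →L[ℂ] H) - (s : ℂ) • T = z • (1 - X) := by
    rw [smul_sub, hX, smul_smul, mul_div_cancel₀ _ hz]
  have hXmem : ∀ n, X ^ n ∈ 𝒜 := fun n => pow_mem (by rw [hX]; exact 𝒜.smul_mem hT _) n
  have hmem : (∑' n, X ^ n) ∈ 𝒜 := by
    have h1 : (∑' n, X ^ n) ∈ closure (𝒜 : Set (H →L[ℂ] H)) := by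
      refine mem_closure_of_tendsto hs1.hasSum.tendsto_sum_nat (Eventually.of_forall fun n => ?_)
      exact sum_mem (fun i _ => hXmem i)
    rwa [hcl.closure_eq] at h1
  have htau : ∀ (Y : H →L[ℂ] H), (∀ n, tau ξ (X ^ n * Y) = 0) → tau ξ ((∑' n, X ^ n) * Y) = 0 := by
    intro Y hY
    have h1 : HasSum (fun n => X ^ n * Y) ((∑' n, X ^ n) * Y) := hs1.hasSum.mul_right Y
    have h2 := (tau ξ).hasSum h1
    simp only [hY] at h2
    exact (h2.unique hasSum_zero)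
  have hTn : ∀ n, tau ξ (X ^ n * T) = 0 := by
    intro n
    rw [hXn, smul_mul_assoc, ← pow_succ, map_smul, h0 _ (by omega), smul_zero]
  have hcomm : T * (∑' n, X ^ n) = (∑' n, X ^ n) * T := by
    rw [← hs1.tsum_mul_left, ← hs1.tsum_mul_right]
    refine tsum_congr (fun n => ?_)
    rw [hXn, smul_mul_assoc, mul_smul_comm, ← pow_succ, ← pow_succ']
  refine ⟨z⁻¹ • ∑' n, X ^ n, 𝒜.smul_mem hmem _, ?_, ?_, ?_, ?_, ?_⟩
  · rw [norm_smul, norm_inv]
    have h1 : ‖∑' n, X ^ n‖ ≤ ∑' n : ℕ, ‖T ^ n‖ / ‖z‖ ^ n :=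
      (norm_tsum_le_tsum_norm hnorm).trans (hnorm.tsum_le_tsum hbound hsum)
    have h2 : ‖z‖⁻¹ * ‖∑' n, X ^ n‖ ≤ ‖z‖⁻¹ * (∑' n : ℕ, ‖T ^ n‖ / ‖z‖ ^ n) :=
      mul_le_mul_of_nonneg_left h1 (by positivity)
    linarith
  · rw [hz1, smul_mul_smul_comm, mul_inv_cancel₀ hz, one_smul, hs1.one_sub_mul_tsum_pow]
  · rw [hz1, smul_mul_smul_comm, inv_mul_cancel₀ hz, one_smul, hs1.tsum_pow_mul_one_sub]
  · rw [mul_smul_comm, map_smul, hcomm, htau T hTn, smul_zero]
  · rw [smul_mul_assoc, map_smul, htau T hTn, smul_zero]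

/-! ### spectrum of `A* A` -/

theorem spectrum_bounds (A R : H →L[ℂ] H) (K N : ℝ) (hK : 0 < K) (hR : R * A = 1)
    (hRK : ‖R‖ ≤ K) (hAN : ‖A‖ ≤ N) :
    ∀ x ∈ spectrum ℝ (star A * A), x ∈ Set.Icc (K ^ 2)⁻¹ (N ^ 2) := by
  have hsa : IsSelfAdjoint (star A * A) := IsSelfAdjoint.star_mul_self A
  have hN : 0 ≤ N := (norm_nonneg _).trans hAN
  have hlow : algebraMap ℝ (H →L[ℂ] H) (K ^ 2)⁻¹ ≤ star A * A := by
    rw [ContinuousLinearMap.le_def]
    rw [ContinuousLinearMap.isPositive_def']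
    constructor
    · exact hsa.sub (IsSelfAdjoint.algebraMap _ (IsSelfAdjoint.all _))
    · intro v
      rw [ContinuousLinearMap.reApplyInnerSelf_apply]
      have e1 : (star A * A - algebraMap ℝ (H →L[ℂ] H) (K ^ 2)⁻¹) v =
          (star A) (A v) - (((K ^ 2)⁻¹ : ℝ) : ℂ) • v := by
        rw [Algebra.algebraMap_eq_smul_one, Complex.coe_smul]
        rfl
      rw [e1, inner_sub_left, ContinuousLinearMap.star_eq_adjoint,
        ContinuousLinearMap.adjoint_inner_left, inner_smul_left, Complex.conj_ofReal,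
        inner_self_eq_norm_sq_to_K, inner_self_eq_norm_sq_to_K]
      have h2 : ‖v‖ ≤ K * ‖A v‖ := by
        have : v = R (A v) := by
          have := congrArg (fun X : H →L[ℂ] H => X v) hR
          simpa using this.symm
        calc ‖v‖ = ‖R (A v)‖ := by rw [← this]
          _ ≤ ‖R‖ * ‖A v‖ := R.le_opNorm _
          _ ≤ K * ‖A v‖ := mul_le_mul_of_nonneg_right hRK (norm_nonneg _)
      have h3 : ‖v‖ ^ 2 ≤ K ^ 2 * ‖A v‖ ^ 2 := by
        rw [← mul_pow]
        exact pow_le_pow_left₀ (norm_nonneg _) h2 2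
      have h4 : (K ^ 2)⁻¹ * ‖v‖ ^ 2 ≤ ‖A v‖ ^ 2 := by
        rw [inv_mul_le_iff₀ (by positivity)]
        exact h3
      have e2 : RCLike.re (((‖A v‖ : ℂ)) ^ 2 - (((K ^ 2)⁻¹ : ℝ) : ℂ) * ((‖v‖ : ℂ)) ^ 2) =
          ‖A v‖ ^ 2 - (K ^ 2)⁻¹ * ‖v‖ ^ 2 := by
        have : ((‖A v‖ : ℂ)) ^ 2 - (((K ^ 2)⁻¹ : ℝ) : ℂ) * ((‖v‖ : ℂ)) ^ 2 =
            ((‖A v‖ ^ 2 - (K ^ 2)⁻¹ * ‖v‖ ^ 2 : ℝ) : ℂ) := by push_cast; ring
        rw [this]
        exact Complex.ofReal_re _
      erw [e2]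
      linarith
  intro x hx
  refine ⟨?_, ?_⟩
  · exact (algebraMap_le_iff_le_spectrum (R := ℝ) (a := star A * A)).1 hlow x hx
  · have h1 : ‖x‖ ≤ ‖star A * A‖ * ‖(1 : H →L[ℂ] H)‖ := spectrum.norm_le_norm_mul_of_mem hx
    have h2 : ‖star A * A‖ ≤ N ^ 2 := by
      rw [CStarRing.norm_star_mul_self, sq]
      exact mul_le_mul hAN hAN (norm_nonneg _) hN
    have h3 : ‖(1 : H →L[ℂ] H)‖ ≤ 1 := ContinuousLinearMap.norm_id_le
    calc x ≤ ‖x‖ := le_abs_self x
      _ ≤ ‖star A * A‖ * ‖(1 : H →L[ℂ] H)‖ := h1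
      _ ≤ N ^ 2 * 1 := mul_le_mul h2 h3 (norm_nonneg _) (by positivity)
      _ = N ^ 2 := mul_one _

/-! ### functional calculus estimates -/

theorem aeval_sub_inv_le (A R : H →L[ℂ] H) (K N : ℝ) (hK : 0 < K) (hR : R * A = 1)
    (hR' : A * R = 1) (hRK : ‖R‖ ≤ K) (hAN : ‖A‖ ≤ N) (q : ℝ[X]) (δ : ℝ) (hδ : 0 ≤ δ)
    (hq : ∀ x ∈ Set.Icc (K ^ 2)⁻¹ (N ^ 2), |q.eval x - x⁻¹| ≤ δ) :
    ‖aeval (star A * A) q - R * star R‖ ≤ δ := by
  have hsa : IsSelfAdjoint (star A * A) := IsSelfAdjoint.star_mul_self A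
  have hsp := spectrum_bounds A R K N hK hR hRK hAN
  have hpos : ∀ x ∈ spectrum ℝ (star A * A), x ≠ 0 := fun x hx =>
    (lt_of_lt_of_le (by positivity) (hsp x hx).1).ne'
  have hstar : star A * star R = 1 := by rw [← star_mul, hR, star_one]
  have hstar' : star R * star A = 1 := by rw [← star_mul, hR', star_one]
  let u : (H →L[ℂ] H)ˣ := ⟨star A * A, R * star R,
    by rw [mul_assoc, ← mul_assoc A, hR', one_mul, hstar],
    by rw [mul_assoc, ← mul_assoc (star R), hstar', one_mul, hR]⟩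
  have h1 : cfc (fun x : ℝ => x⁻¹) (star A * A) = R * star R := cfc_inv_id (R := ℝ) u hsa
  have h2 : cfc q.eval (star A * A) = aeval (star A * A) q := cfc_polynomial q (star A * A) hsa
  have hc1 : ContinuousOn (fun x : ℝ => x⁻¹) (spectrum ℝ (star A * A)) :=
    continuousOn_inv₀.mono hpos
  have hc2 : ContinuousOn q.eval (spectrum ℝ (star A * A)) := q.continuous.continuousOn
  rw [← h1, ← h2, ← cfc_sub _ _ (star A * A) hc2 hc1]
  refine norm_cfc_le hδ (fun x hx => ?_)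
  exact hq x (hsp x hx)

theorem aeval_sub_log_le (A R : H →L[ℂ] H) (K N : ℝ) (hK : 0 < K) (hR : R * A = 1)
    (hRK : ‖R‖ ≤ K) (hAN : ‖A‖ ≤ N) (q : ℝ[X]) (δ : ℝ) (hδ : 0 ≤ δ)
    (hq : ∀ x ∈ Set.Icc (K ^ 2)⁻¹ (N ^ 2), |q.eval x - Real.log x| ≤ δ) :
    ‖aeval (star A * A) q - cfc Real.log (star A * A)‖ ≤ δ := by
  have hsa : IsSelfAdjoint (star A * A) := IsSelfAdjoint.star_mul_self A
  have hsp := spectrum_bounds A R K N hK hR hRK hAN
  have hpos : ∀ x ∈ spectrum ℝ (star A * A), x ≠ 0 := fun x hx =>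
    (lt_of_lt_of_le (by positivity) (hsp x hx).1).ne'
  have h2 : cfc q.eval (star A * A) = aeval (star A * A) q := cfc_polynomial q (star A * A) hsa
  have hc1 : ContinuousOn Real.log (spectrum ℝ (star A * A)) :=
    Real.continuousOn_log.mono hpos
  have hc2 : ContinuousOn q.eval (spectrum ℝ (star A * A)) := q.continuous.continuousOn
  rw [← h2, ← cfc_sub _ _ (star A * A) hc2 hc1]
  refine norm_cfc_le hδ (fun x hx => ?_)
  exact hq x (hsp x hx)

/-- the infimum over `ε` is attained at `0` when `A* A` is bounded below -/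
theorem vectorDet_eq (ξ : H) (hξ : ‖ξ‖ = 1) (A R : H →L[ℂ] H) (K : ℝ) (hK : 0 < K)
    (hR : R * A = 1) (hRK : ‖R‖ ≤ K) :
    vectorDet ξ A = Real.exp ((tau ξ (cfc Real.log (star A * A))).re / 2) := by
  set B : H →L[ℂ] H := star A * A with hB
  have hsa : IsSelfAdjoint B := IsSelfAdjoint.star_mul_self A
  have hsp := spectrum_bounds A R K ‖A‖ hK hR hRK le_rfl
  have hlow : ∀ x ∈ spectrum ℝ B, (K ^ 2)⁻¹ ≤ x := fun x hx => (hsp x hx).1
  have hKp : 0 < (K ^ 2)⁻¹ := by positivity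
  have hpos : ∀ x ∈ spectrum ℝ B, 0 < x := fun x hx => lt_of_lt_of_le hKp (hlow x hx)
  have key : ∀ ε : ℝ, 0 < ε → cfc Real.log (B + ((ε : ℝ) : ℂ) • (1 : H →L[ℂ] H)) =
      cfc (fun x : ℝ => Real.log (x + ε)) B := by
    intro ε hε
    have e1 : B + ((ε : ℝ) : ℂ) • (1 : H →L[ℂ] H) = cfc (fun x : ℝ => x + ε) B := by
      rw [cfc_add_const ε (fun x => x) B, cfc_id' ℝ B, Algebra.algebraMap_eq_smul_one,
        Complex.coe_smul]
    have hg : ContinuousOn Real.log ((fun x : ℝ => x + ε) '' spectrum ℝ B) := by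
      refine Real.continuousOn_log.mono ?_
      rintro _ ⟨x, hx, rfl⟩
      exact (add_pos (hpos x hx) hε).ne'
    rw [e1, ← cfc_comp' Real.log (fun x : ℝ => x + ε) B hg]
  have hcl : ContinuousOn Real.log (spectrum ℝ B) :=
    Real.continuousOn_log.mono (fun x hx => (hpos x hx).ne')
  have hcle : ∀ ε : ℝ, 0 < ε → ContinuousOn (fun x : ℝ => Real.log (x + ε)) (spectrum ℝ B) := by
    intro ε hε
    refine ContinuousOn.log (by fun_prop) (fun x hx => (add_pos (hpos x hx) hε).ne')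
  have lo : ∀ ε : ℝ, 0 < ε → (tau ξ (cfc Real.log B)).re ≤
      (tau ξ (cfc Real.log (B + ((ε : ℝ) : ℂ) • (1 : H →L[ℂ] H)))).re := by
    intro ε hε
    rw [key ε hε]
    refine tau_re_mono ξ _ _ (cfc_mono (fun x hx => ?_) hcl (hcle ε hε))
    exact Real.log_le_log (hpos x hx) (by linarith)
  have hi : ∀ ε : ℝ, 0 < ε →
      (tau ξ (cfc Real.log (B + ((ε : ℝ) : ℂ) • (1 : H →L[ℂ] H)))).re ≤
      (tau ξ (cfc Real.log B)).re + ε * K ^ 2 := by
    intro ε hε
    rw [key ε hε]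
    have h1 : cfc (fun x : ℝ => Real.log (x + ε)) B ≤
        cfc (fun x : ℝ => Real.log x + ε * K ^ 2) B := by
      refine cfc_mono (fun x hx => ?_) (hcle ε hε) (hcl.add continuousOn_const)
      have hx0 := hpos x hx
      have h2 : Real.log (x + ε) = Real.log x + Real.log (1 + ε / x) := by
        rw [← Real.log_mul hx0.ne' (by positivity)]
        congr 1
        field_simp
      have h3 : Real.log (1 + ε / x) ≤ ε / x := by
        have := Real.log_le_sub_one_of_pos (show 0 < 1 + ε / x by positivity)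
        linarith
      have h4 : ε / x ≤ ε * K ^ 2 := by
        rw [div_eq_mul_inv]
        refine mul_le_mul_of_nonneg_left ?_ hε.le
        rw [inv_le_comm₀ hx0 (by positivity)]
        exact hlow x hx
      show Real.log (x + ε) ≤ Real.log x + ε * K ^ 2
      rw [h2]
      linarith
    have h2 := tau_re_mono ξ _ _ h1
    rw [cfc_add_const (ε * K ^ 2) Real.log B hcl] at h2
    refine h2.trans (le_of_eq ?_)
    have h3 : tau ξ (algebraMap ℝ (H →L[ℂ] H) (ε * K ^ 2)) = ((ε * K ^ 2 : ℝ) : ℂ) := by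
      rw [Algebra.algebraMap_eq_smul_one, tau_apply]
      have : ((ε * K ^ 2) • (1 : H →L[ℂ] H)) ξ = ((ε * K ^ 2 : ℝ) : ℂ) • ξ := by
        rw [Complex.coe_smul]; rfl
      rw [this, inner_smul_right, inner_self_eq_norm_sq_to_K, hξ]
      simp
    rw [map_add, h3, Complex.add_re, Complex.ofReal_re]
  have hdef : vectorDet ξ A = ⨅ ε : {r : ℝ // 0 < r}, Real.exp
      ((tau ξ (cfc Real.log (B + (((ε : ℝ) : ℝ) : ℂ) • (1 : H →L[ℂ] H)))).re / 2) := rfl
  have hne : Nonempty {r : ℝ // 0 < r} := ⟨⟨1, one_pos⟩⟩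
  rw [hdef]
  apply le_antisymm
  · -- upper bound
    have hbdd : BddBelow (Set.range (fun ε : {r : ℝ // 0 < r} => Real.exp
      ((tau ξ (cfc Real.log (B + (((ε : ℝ) : ℝ) : ℂ) • (1 : H →L[ℂ] H)))).re / 2))) :=
      ⟨0, by rintro _ ⟨ε, rfl⟩; exact (Real.exp_pos _).le⟩
    have h1 : ∀ ε : ℝ, 0 < ε → (⨅ ε : {r : ℝ // 0 < r}, Real.exp
      ((tau ξ (cfc Real.log (B + (((ε : ℝ) : ℝ) : ℂ) • (1 : H →L[ℂ] H)))).re / 2)) ≤
        Real.exp (((tau ξ (cfc Real.log B)).re + ε * K ^ 2) / 2) := by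
      intro ε hε
      refine (ciInf_le hbdd ⟨ε, hε⟩).trans ?_
      refine Real.exp_le_exp.2 ?_
      have := hi ε hε
      show _ / 2 ≤ _ / 2
      linarith
    have h2 : Tendsto (fun ε : ℝ => Real.exp (((tau ξ (cfc Real.log B)).re + ε * K ^ 2) / 2))
        (𝓝[>] 0) (𝓝 (Real.exp (((tau ξ (cfc Real.log B)).re + 0 * K ^ 2) / 2))) := by
      refine Tendsto.mono_left ?_ nhdsWithin_le_nhds
      exact (by fun_prop : Continuous (fun ε : ℝ =>
        Real.exp (((tau ξ (cfc Real.log B)).re + ε * K ^ 2) / 2))).tendsto 0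
    rw [zero_mul, add_zero] at h2
    exact ge_of_tendsto h2 (by filter_upwards [self_mem_nhdsWithin] with ε hε using h1 ε hε)
  · refine le_ciInf (fun ε => ?_)
    refine Real.exp_le_exp.2 ?_
    have := lo ε.1 ε.2
    linarith

/-! ### the main theorem -/

theorem vectorDet_quasinilpotent (ξ : H) (hξ : ‖ξ‖ = 1) (𝒜 : StarSubalgebra ℂ (H →L[ℂ] H))
    (hcl : IsClosed (𝒜 : Set (H →L[ℂ] H)))
    (htr : ∀ A ∈ 𝒜, ∀ B ∈ 𝒜, inner ℂ ξ (A (B ξ)) = inner ℂ ξ (B (A ξ)))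
    (T : H →L[ℂ] H) (hT : T ∈ 𝒜)
    (hq : Tendsto (fun n : ℕ => ‖T ^ n‖ ^ (1 / (n : ℝ))) atTop (𝓝 0))
    (h0 : ∀ n : ℕ, 1 ≤ n → inner ℂ ξ ((T ^ n) ξ) = 0) (z : ℂ) (hz : z ≠ 0) :
    vectorDet ξ (T - z • (1 : H →L[ℂ] H)) = ‖z‖ := by
  have htr' : ∀ A ∈ 𝒜, ∀ B ∈ 𝒜, tau ξ (A * B) = tau ξ (B * A) := htr
  obtain ⟨K, hK, hN⟩ := neumann ξ 𝒜 hcl T hT hq h0 z hz
  choose! R hRm hRK hR1 hR2 hR3 hR4 using hN
  set A : ℝ → (H →L[ℂ] H) := fun s => z • (1 : H →L[ℂ] H) - (s : ℂ) • T with hA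
  set B : ℝ → (H →L[ℂ] H) := fun s => star (A s) * A s with hB
  have hAm : ∀ s, A s ∈ 𝒜 := fun s =>
    sub_mem (𝒜.smul_mem (one_mem 𝒜) _) (𝒜.smul_mem hT _)
  set N : ℝ := ‖z‖ + ‖T‖ with hNdef
  have hone : ‖(1 : H →L[ℂ] H)‖ ≤ 1 := ContinuousLinearMap.norm_id_le
  have hAN : ∀ s ∈ Set.Icc (0 : ℝ) 1, ‖A s‖ ≤ N := by
    intro s hs
    refine (norm_sub_le _ _).trans ?_
    rw [norm_smul, norm_smul, Complex.norm_real, Real.norm_of_nonneg hs.1]
    have h1 : ‖z‖ * ‖(1 : H →L[ℂ] H)‖ ≤ ‖z‖ * 1 := mul_le_mul_of_nonneg_left hone (norm_nonneg _)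
    have h2 : s * ‖T‖ ≤ 1 * ‖T‖ := mul_le_mul_of_nonneg_right hs.2 (norm_nonneg _)
    linarith
  have hN0 : 0 ≤ N := by positivity
  have hmM : (K ^ 2)⁻¹ ≤ N ^ 2 := by
    have hRA := hR2 0 (Set.left_mem_Icc.2 zero_le_one)
    have h1 : ‖ξ‖ ≤ K * (N * ‖ξ‖) := by
      have h2 : ξ = R 0 (A 0 ξ) := by
        have := congrArg (fun X : H →L[ℂ] H => X ξ) hRA
        exact this.symm
      calc ‖ξ‖ = ‖R 0 (A 0 ξ)‖ := by rw [← h2]
        _ ≤ ‖R 0‖ * ‖A 0 ξ‖ := (R 0).le_opNorm _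
        _ ≤ K * (N * ‖ξ‖) := by
          refine mul_le_mul (hRK 0 (Set.left_mem_Icc.2 zero_le_one)) ?_ (norm_nonneg _) hK.le
          exact ((A 0).le_opNorm ξ).trans (mul_le_mul_of_nonneg_right
            (hAN 0 (Set.left_mem_Icc.2 zero_le_one)) (norm_nonneg _))
    rw [hξ, mul_one] at h1
    rw [inv_le_iff_one_le_mul₀ (by positivity), ← mul_pow]
    have : 1 ≤ N * K := by linarith
    exact one_le_pow₀ this
  -- the derivative
  have hA' : ∀ s, HasDerivAt A (-T) s := by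
    intro s
    have h1 : HasDerivAt (fun s : ℝ => (s : ℂ) • T) T s := by
      have h2 : HasDerivAt (fun s : ℝ => (s : ℂ)) 1 s := Complex.ofRealCLM.hasDerivAt
      simpa using h2.smul_const T
    have h3 := h1.const_sub (z • (1 : H →L[ℂ] H))
    exact h3
  have hstarA' : ∀ s, HasDerivAt (fun s => star (A s)) (-(star T)) s := by
    intro s
    have := (hA' s).star
    rwa [star_neg] at this
  have hB' : ∀ s, HasDerivAt B (-(star T) * A s + star (A s) * (-T)) s := fun s =>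
    (hstarA' s).mul (hA' s)
  have hBm : ∀ s, B s ∈ 𝒜 := fun s => mul_mem (star_mem (hAm s)) (hAm s)
  have hB'm : ∀ s, (-(star T) * A s + star (A s) * (-T)) ∈ 𝒜 := fun s =>
    add_mem (mul_mem (neg_mem (star_mem hT)) (hAm s)) (mul_mem (star_mem (hAm s)) (neg_mem hT))
  have hB'norm : ∀ s ∈ Set.Icc (0 : ℝ) 1,
      ‖-(star T) * A s + star (A s) * (-T)‖ ≤ 2 * (‖T‖ * N) := by
    intro s hs
    have h1 : ‖-(star T) * A s‖ ≤ ‖T‖ * N := by
      refine (norm_mul_le _ _).trans ?_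
      rw [norm_neg, norm_star]
      exact mul_le_mul_of_nonneg_left (hAN s hs) (norm_nonneg _)
    have h2 : ‖star (A s) * (-T)‖ ≤ N * ‖T‖ := by
      refine (norm_mul_le _ _).trans ?_
      rw [norm_neg, norm_star]
      exact mul_le_mul_of_nonneg_right (hAN s hs) (norm_nonneg _)
    calc _ ≤ ‖-(star T) * A s‖ + ‖star (A s) * (-T)‖ := norm_add_le _ _
      _ ≤ _ := by linarith
  -- the exact derivative of the trace of the logarithm vanishes
  have hzero : ∀ s ∈ Set.Icc (0 : ℝ) 1,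
      tau ξ (R s * star (R s) * (-(star T) * A s + star (A s) * (-T))) = 0 := by
    intro s hs
    have hr1 : A s * R s = 1 := hR1 s hs
    have hr2 : R s * A s = 1 := hR2 s hs
    have hst : star (R s) * star (A s) = 1 := by rw [← star_mul, hr1, star_one]
    have e1 : R s * star (R s) * (-(star T) * A s + star (A s) * (-T)) =
        R s * (-(star (R s) * star T * A s)) + (-(R s * T)) := by
      rw [mul_add]
      congr 1
      · noncomm_ring
      · rw [mul_assoc, ← mul_assoc (star (R s)), hst, one_mul, mul_neg]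
    rw [e1, map_add, map_neg, hR4 s hs, neg_zero, add_zero,
      htr' _ (hRm s hs) _ (neg_mem (mul_mem (mul_mem (star_mem (hRm s hs)) (star_mem hT)) (hAm s)))]
    have e2 : -(star (R s) * star T * A s) * R s = -(star (T * R s)) := by
      rw [neg_mul, mul_assoc, hr1, mul_one, star_mul]
    rw [e2, map_neg, tau_star, hR3 s hs, map_zero, neg_zero]
  -- comparison with polynomials
  have main : ∀ δ : ℝ, 0 < δ →
      ‖tau ξ (cfc Real.log (B 1)) - tau ξ (cfc Real.log (B 0))‖ ≤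
        δ * (2 * (‖T‖ * N) + 2 * (N ^ 2 - (K ^ 2)⁻¹)) := by
    intro δ hδ
    obtain ⟨p, hp1, hp2⟩ := exists_log_poly (K ^ 2)⁻¹ (N ^ 2) δ (by positivity) hmM hδ
    have hd : ∀ s ∈ Set.Icc (0 : ℝ) 1, HasDerivWithinAt (fun t => tau ξ (aeval (B t) p))
        (tau ξ (aeval (B s) (derivative p) * (-(star T) * A s + star (A s) * (-T))))
        (Set.Icc (0 : ℝ) 1) s := by
      intro s _
      refine (hasDerivAt_tau_poly ξ B _ s (hB' s) (fun i j => ?_) p).hasDerivWithinAt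
      rw [htr' _ (mul_mem (pow_mem (hBm s) i) (hB'm s)) _ (pow_mem (hBm s) j), ← mul_assoc,
        ← pow_add, add_comm]
    have hb : ∀ s ∈ Set.Ico (0 : ℝ) 1,
        ‖tau ξ (aeval (B s) (derivative p) * (-(star T) * A s + star (A s) * (-T)))‖ ≤
          δ * (2 * (‖T‖ * N)) := by
      intro s hs
      have hs' : s ∈ Set.Icc (0 : ℝ) 1 := ⟨hs.1, hs.2.le⟩
      have h1 := aeval_sub_inv_le (A s) (R s) K N hK (hR2 s hs') (hR1 s hs') (hRK s hs')
        (hAN s hs') (derivative p) δ hδ.le hp1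
      have h2 : tau ξ (aeval (B s) (derivative p) * (-(star T) * A s + star (A s) * (-T))) =
          tau ξ ((aeval (B s) (derivative p) - R s * star (R s)) *
            (-(star T) * A s + star (A s) * (-T))) := by
        rw [sub_mul, map_sub, hzero s hs', sub_zero]
      rw [h2]
      refine (norm_tau_le ξ hξ _).trans ((norm_mul_le _ _).trans ?_)
      exact mul_le_mul h1 (hB'norm s hs') (norm_nonneg _) hδ.le
    have h3 := norm_image_sub_le_of_norm_deriv_le_segment_01' hd hb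
    have h4 : ∀ s ∈ Set.Icc (0 : ℝ) 1,
        ‖tau ξ (aeval (B s) p) - tau ξ (cfc Real.log (B s))‖ ≤ δ * (N ^ 2 - (K ^ 2)⁻¹) := by
      intro s hs
      rw [← map_sub]
      refine (norm_tau_le ξ hξ _).trans ?_
      exact aeval_sub_log_le (A s) (R s) K N hK (hR2 s hs) (hRK s hs)
        (hAN s hs) p _ (mul_nonneg hδ.le (sub_nonneg.2 hmM)) hp2
    have h5 := h4 1 (Set.right_mem_Icc.2 zero_le_one)
    have h6 := h4 0 (Set.left_mem_Icc.2 zero_le_one)
    have e : tau ξ (cfc Real.log (B 1)) - tau ξ (cfc Real.log (B 0)) =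
        (tau ξ (aeval (B 1) p) - tau ξ (aeval (B 0) p)) -
        (tau ξ (aeval (B 1) p) - tau ξ (cfc Real.log (B 1))) +
        (tau ξ (aeval (B 0) p) - tau ξ (cfc Real.log (B 0))) := by ring
    rw [e]
    refine (norm_add_le _ _).trans ?_
    have h7 := norm_sub_le (tau ξ (aeval (B 1) p) - tau ξ (aeval (B 0) p))
      (tau ξ (aeval (B 1) p) - tau ξ (cfc Real.log (B 1)))
    linarith
  have heq : tau ξ (cfc Real.log (B 1)) = tau ξ (cfc Real.log (B 0)) := by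
    rw [← sub_eq_zero, ← norm_le_zero_iff]
    have h1 : Tendsto (fun δ : ℝ => δ * (2 * (‖T‖ * N) + 2 * (N ^ 2 - (K ^ 2)⁻¹))) (𝓝[>] 0)
        (𝓝 (0 * (2 * (‖T‖ * N) + 2 * (N ^ 2 - (K ^ 2)⁻¹)))) := by
      refine Tendsto.mono_left ?_ nhdsWithin_le_nhds
      exact (by fun_prop : Continuous (fun δ : ℝ =>
        δ * (2 * (‖T‖ * N) + 2 * (N ^ 2 - (K ^ 2)⁻¹)))).tendsto 0
    rw [zero_mul] at h1
    exact ge_of_tendsto h1 (by filter_upwards [self_mem_nhdsWithin] with δ hδ using main δ hδ)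
  -- value at `s = 0`
  have hB0 : B 0 = algebraMap ℝ (H →L[ℂ] H) (‖z‖ ^ 2) := by
    simp only [hB, hA, Complex.ofReal_zero, zero_smul, sub_zero, star_smul, star_one,
      smul_mul_smul_comm, mul_one, Algebra.algebraMap_eq_smul_one]
    rw [← Complex.coe_smul, ← starRingEnd_apply, Complex.conj_mul']
    push_cast
    rfl
  have hval : tau ξ (cfc Real.log (B 0)) = ((2 * Real.log ‖z‖ : ℝ) : ℂ) := by
    rw [hB0, cfc_algebraMap, Real.log_pow, Algebra.algebraMap_eq_smul_one, tau_apply]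
    have : (((2 : ℕ) * Real.log ‖z‖) • (1 : H →L[ℂ] H)) ξ =
        ((2 * Real.log ‖z‖ : ℝ) : ℂ) • ξ := by
      rw [Complex.coe_smul]
      norm_num
    rw [this, inner_smul_right, inner_self_eq_norm_sq_to_K, hξ]
    simp
  -- conclusion
  have h1m : (1 : ℝ) ∈ Set.Icc (0 : ℝ) 1 := Set.right_mem_Icc.2 zero_le_one
  have hRneg : (-(R 1)) * (T - z • (1 : H →L[ℂ] H)) = 1 := by
    have h1 := hR2 1 h1m
    rw [Complex.ofReal_one, one_smul] at h1
    rw [neg_mul, ← mul_neg, neg_sub, h1]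
  rw [vectorDet_eq ξ hξ (T - z • (1 : H →L[ℂ] H)) (-(R 1)) K hK hRneg
    (by rw [norm_neg]; exact hRK 1 h1m)]
  have hBB : star (T - z • (1 : H →L[ℂ] H)) * (T - z • (1 : H →L[ℂ] H)) = B 1 := by
    have e1 : T - z • (1 : H →L[ℂ] H) = -(A 1) := by
      simp [hA]
    rw [e1, star_neg, neg_mul_neg]
  rw [hBB, heq, hval, Complex.ofReal_re]
  rw [show 2 * Real.log ‖z‖ / 2 = Real.log ‖z‖ by ring, Real.exp_log (norm_pos_iff.2 hz)]

end Crest.Agent.R113.DQ
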