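import Mathlib
import Crest.Prelude.Def_TwoAdicShift

/-!
Row 113, S0148 from S0150 (helper46): transfer of the fibred weighted shift to an arbitrary
infinite-dimensional separable Hilbert space.
-/

set_option autoImplicit false
open Filter Topology MeasureTheory
open Crest.AnalysisR.TwoAdic
attribute [local instance] Crest.AnalysisR.TwoAdic.borelTwoAdic Crest.AnalysisR.TwoAdic.borelSpace_twoAdic

namespace Crest.Agent.R113

/-! ### separable Hilbert spaces -/

theorem countable_of_orthonormal {E : Type*} [NormedAddCommGroup E] [InnerProductSpace ℂ E]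
    [TopologicalSpace.SeparableSpace E] {ι : Type*} {v : ι → E} (hv : Orthonormal ℂ v) :
    Countable ι := by
  have key : (Set.univ : Set ι).PairwiseDisjoint (fun i => Metric.ball (v i) (1 / 2)) := by
    intro i _ j _ hij
    refine Metric.ball_disjoint_ball ?_
    have h1 : ‖v i - v j‖ ^ 2 = 2 := by
      rw [@norm_sub_sq ℂ, hv.1 i, hv.1 j, hv.2 hij]
      norm_num
    rw [dist_eq_norm]
    have h2 : (0 : ℝ) ≤ ‖v i - v j‖ := norm_nonneg _
    nlinarith
  have h := key.countable_of_isOpen (fun i _ => Metric.isOpen_ball)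
    (fun i _ => ⟨v i, Metric.mem_ball_self (by norm_num)⟩)
  exact Set.countable_univ_iff.1 h

theorem exists_liso (E : Type*) [NormedAddCommGroup E] [InnerProductSpace ℂ E] [CompleteSpace E]
    [TopologicalSpace.SeparableSpace E] (hE : ¬ FiniteDimensional ℂ E) :
    Nonempty (E ≃ₗᵢ[ℂ] lp (fun _ : ℕ => ℂ) 2) := by
  classical
  obtain ⟨w, b, hb⟩ := exists_hilbertBasis ℂ E
  have hc : Countable w := countable_of_orthonormal b.orthonormal
  have hi : Infinite w := by
    by_contra hfin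
    rw [not_infinite_iff_finite] at hfin
    have := Fintype.ofFinite w
    exact hE (b.toOrthonormalBasis.toBasis.finiteDimensional_of_finite)
  obtain ⟨e⟩ : Nonempty (ℕ ≃ w) := by
    have := nonempty_denumerable w
    obtain ⟨d⟩ := this
    exact ⟨(Denumerable.eqv w).symm⟩
  have ho : Orthonormal ℂ (fun n : ℕ => b (e n)) := b.orthonormal.comp e e.injective
  have hr : Set.range (fun n : ℕ => b (e n)) = Set.range b := by
    ext x
    constructor
    · rintro ⟨n, rfl⟩
      exact ⟨_, rfl⟩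
    · rintro ⟨y, rfl⟩
      exact ⟨e.symm y, by simp⟩
  have hs : ⊤ ≤ (Submodule.span ℂ (Set.range (fun n : ℕ => b (e n)))).topologicalClosure := by
    rw [hr, b.dense_span]
  exact ⟨(HilbertBasis.mk ho hs).repr⟩

/-! ### the two spaces -/

theorem basisVec_orthonormal : Orthonormal ℂ (fun j : ℤ => basisVec j) := by
  classical
  let b : HilbertBasis ℤ ℂ seqHilbert := ⟨LinearIsometryEquiv.refl ℂ _⟩
  have h := b.orthonormal
  have h2 : (fun j : ℤ => b j) = fun j : ℤ => basisVec j := by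
    funext j
    have := b.repr_symm_single j
    rw [← this]
    show _ = basisVec j
    unfold basisVec
    congr 1
  rw [← h2]
  exact h

theorem basisVec_dense :
    (Submodule.span ℂ (Set.range (fun j : ℤ => basisVec j))).topologicalClosure = ⊤ := by
  classical
  let b : HilbertBasis ℤ ℂ seqHilbert := ⟨LinearIsometryEquiv.refl ℂ _⟩
  have h := b.dense_span
  have h2 : (fun j : ℤ => b j) = fun j : ℤ => basisVec j := by
    funext j
    have := b.repr_symm_single j
    rw [← this]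
    show _ = basisVec j
    unfold basisVec
    congr 1
  rw [← h2]
  exact h

instance separable_seqHilbert : TopologicalSpace.SeparableSpace seqHilbert := by
  have h : TopologicalSpace.IsSeparable
      ((Submodule.span ℂ (Set.range (fun j : ℤ => basisVec j)) : Submodule ℂ seqHilbert) :
        Set seqHilbert) :=
    (Set.countable_range _).isSeparable.span
  have h2 := h.closure
  have h3 : closure ((Submodule.span ℂ (Set.range (fun j : ℤ => basisVec j)) :
      Submodule ℂ seqHilbert) : Set seqHilbert) = Set.univ := by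
    rw [← Submodule.topologicalClosure_coe, basisVec_dense]
    rfl
  rw [h3] at h2
  exact TopologicalSpace.isSeparable_univ_iff.1 h2

theorem seqHilbert_infinite : ¬ FiniteDimensional ℂ seqHilbert := by
  intro h
  have h1 := basisVec_orthonormal.linearIndependent
  have := h1.finite_of_isNoetherian
  exact not_finite ℤ

instance isProb_haarTwoAdic : IsProbabilityMeasure haarTwoAdic := by
  constructor
  have := Measure.addHaarMeasure_self (K₀ := (⊤ : TopologicalSpace.PositiveCompacts ℤ_[2]))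
  simpa [haarTwoAdic] using this

theorem fibreSpace_infinite : ¬ FiniteDimensional ℂ fibreSpace := by
  intro h
  apply seqHilbert_infinite
  have hinj : Function.Injective (Lp.constL 2 haarTwoAdic ℂ : seqHilbert →L[ℂ] fibreSpace) := by
    rw [injective_iff_map_eq_zero]
    intro x hx
    have h1 : ‖(Lp.constL 2 haarTwoAdic ℂ : seqHilbert →L[ℂ] fibreSpace) x‖ = 0 := by
      rw [hx, norm_zero]
    rw [Lp.constL_apply] at h1
    have h2 : ‖Lp.const 2 haarTwoAdic x‖ = ‖x‖ * (haarTwoAdic.real Set.univ) ^ (1 / (2 : ENNReal).toReal) :=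
      Lp.norm_const' 2 haarTwoAdic x (by norm_num) (by norm_num)
    rw [h2] at h1
    simp at h1
    exact h1
  exact FiniteDimensional.of_injective
    ((Lp.constL 2 haarTwoAdic ℂ : seqHilbert →L[ℂ] fibreSpace) : seqHilbert →ₗ[ℂ] fibreSpace) hinj

instance separable_fibreSpace : TopologicalSpace.SeparableSpace fibreSpace := by
  have : MeasurableSpace.CountablyGenerated ℤ_[2] := inferInstance
  have : Fact ((2 : ENNReal) ≠ ⊤) := ⟨by norm_num⟩
  have : SecondCountableTopology fibreSpace := Lp.SecondCountableTopology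
  infer_instance

theorem exists_unitary (H : Type*) [NormedAddCommGroup H] [InnerProductSpace ℂ H] [CompleteSpace H]
    [TopologicalSpace.SeparableSpace H] (hH : ¬ FiniteDimensional ℂ H) :
    Nonempty (fibreSpace ≃ₗᵢ[ℂ] H) := by
  obtain ⟨e₁⟩ := exists_liso fibreSpace fibreSpace_infinite
  obtain ⟨e₂⟩ := exists_liso H hH
  exact ⟨e₁.trans e₂.symm⟩

/-! ### multiplication operators -/

theorem exists_mul (g : ℤ_[2] → ℂ) (hg : Measurable g) (C : ℝ) (hC : ∀ x, ‖g x‖ ≤ C) :
    ∃ M : fibreSpace →L[ℂ] fibreSpace, ∀ f : fibreSpace,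
      ∀ᵐ x ∂haarTwoAdic, (M f : ℤ_[2] → seqHilbert) x = g x • (f : ℤ_[2] → seqHilbert) x := by
  have hC0 : 0 ≤ C := (norm_nonneg _).trans (hC 0)
  have hmem : ∀ f : fibreSpace, MemLp (fun x => g x • (f : ℤ_[2] → seqHilbert) x) 2 haarTwoAdic := by
    intro f
    refine MemLp.of_le_mul (c := C) (Lp.memLp f) ?_ ?_
    · exact hg.aestronglyMeasurable.smul (Lp.aestronglyMeasurable f)
    · refine Eventually.of_forall (fun x => ?_)
      rw [norm_smul]
      exact mul_le_mul_of_nonneg_right (hC x) (norm_nonneg _)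
  let L : fibreSpace →ₗ[ℂ] fibreSpace :=
    { toFun := fun f => (hmem f).toLp _
      map_add' := by
        intro f f'
        apply Lp.ext
        filter_upwards [(hmem (f + f')).coeFn_toLp, (hmem f).coeFn_toLp, (hmem f').coeFn_toLp,
          Lp.coeFn_add f f', Lp.coeFn_add ((hmem f).toLp _) ((hmem f').toLp _)] with x h1 h2 h3 h4 h5
        rw [h1, h5, Pi.add_apply, h2, h3, h4, Pi.add_apply, smul_add]
      map_smul' := by
        intro c f
        apply Lp.ext
        filter_upwards [(hmem (c • f)).coeFn_toLp, (hmem f).coeFn_toLp,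
          Lp.coeFn_smul c f, Lp.coeFn_smul c ((hmem f).toLp _)] with x h1 h2 h3 h4
        rw [h1, RingHom.id_apply, h4, Pi.smul_apply, h2, h3, Pi.smul_apply, smul_comm] }
  refine ⟨L.mkContinuous C (fun f => ?_), fun f => ?_⟩
  · refine Lp.norm_le_mul_norm_of_ae_le_mul ?_
    filter_upwards [(hmem f).coeFn_toLp] with x h1
    show ‖((hmem f).toLp _ : ℤ_[2] → seqHilbert) x‖ ≤ _
    rw [h1, norm_smul]
    exact mul_le_mul_of_nonneg_right (hC x) (norm_nonneg _)
  · exact (hmem f).coeFn_toLp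

/-! ### the radical bound -/

theorem tendsto_root_of_bound {E : Type*} [NormedAddCommGroup E] [NormedSpace ℂ E]
    (T : E →L[ℂ] E)
    (h : ∀ n : ℕ, 1 ≤ n → ‖T ^ n‖ ≤ Real.exp (-10 * (((n + 1) ^ 2 / 4 : ℕ) : ℝ))) :
    Tendsto (fun n : ℕ => ‖T ^ n‖ ^ (1 / (n : ℝ))) atTop (𝓝 0) := by
  have h1 : Tendsto (fun n : ℕ => Real.exp (-(n : ℝ))) atTop (𝓝 0) :=
    Real.tendsto_exp_neg_atTop_nhds_zero.comp tendsto_natCast_atTop_atTop
  refine squeeze_zero' (Eventually.of_forall fun n => Real.rpow_nonneg (norm_nonneg _) _) ?_ h1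
  filter_upwards [eventually_ge_atTop 1] with n hn
  have hn' : (1 : ℝ) ≤ (n : ℝ) := by exact_mod_cast hn
  have h2 : ((n : ℝ) * n) ≤ 10 * (((n + 1) ^ 2 / 4 : ℕ) : ℝ) := by
    have h3 : n * n ≤ 4 * ((n + 1) ^ 2 / 4) := by
      have h4 : (n + 1) ^ 2 < 4 * ((n + 1) ^ 2 / 4) + 4 := by
        have := Nat.div_add_mod ((n + 1) ^ 2) 4
        have h5 := Nat.mod_lt ((n + 1) ^ 2) (show 0 < 4 by norm_num)
        omega
      nlinarith
    have h4 : ((n : ℝ) * n) ≤ 4 * (((n + 1) ^ 2 / 4 : ℕ) : ℝ) := by exact_mod_cast h3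
    have h5 : (0 : ℝ) ≤ (((n + 1) ^ 2 / 4 : ℕ) : ℝ) := Nat.cast_nonneg _
    linarith
  calc ‖T ^ n‖ ^ (1 / (n : ℝ))
      ≤ (Real.exp (-10 * (((n + 1) ^ 2 / 4 : ℕ) : ℝ))) ^ (1 / (n : ℝ)) :=
        Real.rpow_le_rpow (norm_nonneg _) (h n hn) (by positivity)
    _ ≤ (Real.exp (-((n : ℝ) * n))) ^ (1 / (n : ℝ)) := by
        refine Real.rpow_le_rpow (Real.exp_pos _).le (Real.exp_le_exp.2 (by linarith)) (by positivity)
    _ = Real.exp (-(n : ℝ)) := by
        rw [← Real.exp_mul]
        congr 1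
        field_simp

/-! ### the transfer -/

/-- the statement of S0150 -/
def Stmt150 : Prop :=
    ∃ (β b : ℤ → ℤ_[2] → ℝ) (Sfib Vfib : ℤ_[2] → (seqHilbert →L[ℂ] seqHilbert))
      (S V : fibreSpace →L[ℂ] fibreSpace),
      (∀ j, Measurable (β j)) ∧ (∀ j x, 0 < β j x) ∧
      (∀ x j, Sfib x (basisVec j) = (β j x : ℂ) • basisVec (j + 1)) ∧
      (∀ f : fibreSpace, ∀ᵐ x ∂haarTwoAdic, (S f : ℤ_[2] → seqHilbert) x = Sfib x ((f : ℤ_[2] → seqHilbert) x)) ∧
      (∀ x, ∀ W : Submodule ℂ seqHilbert, IsClosed (W : Set seqHilbert) →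
        ((∀ v ∈ W, Sfib x v ∈ W) ↔ (W = ⊥ ∨ W = ⊤ ∨ ∃ h : ℤ, W = tailSpace h))) ∧
      S ≠ 0 ∧ ‖S‖ = Real.exp (-10) ∧
      (∀ n : ℕ, 1 ≤ n → ‖S ^ n‖ ≤ Real.exp (-10 * (((n + 1) ^ 2 / 4 : ℕ) : ℝ))) ∧
      ‖V‖ ≤ 1 ∧ V * S = S * V ∧
      (∀ j, Measurable (b j)) ∧ (∀ j x, 0 ≤ b j x ∧ b j x ≤ 1) ∧
      (∀ x j, Vfib x (basisVec j) = (b j x : ℂ) • basisVec (j - 1)) ∧
      (∀ f : fibreSpace, ∀ᵐ x ∂haarTwoAdic,
        (V f : ℤ_[2] → seqHilbert) (x + 1) = Vfib x ((f : ℤ_[2] → seqHilbert) x)) ∧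
      (∃ N : Set ℤ_[2], haarTwoAdic N = 0 ∧ ∀ x, x ∉ N →
        (∀ j, 0 < b j x) ∧
        (∀ h : ℤ, closure (Vfib x '' (tailSpace h : Set seqHilbert)) = (tailSpace (h - 1) : Set seqHilbert)) ∧
        closure (Set.range (Vfib x)) = Set.univ) ∧
      (∀ W : Submodule ℂ fibreSpace, IsClosed (W : Set fibreSpace) →
        (∀ f ∈ W, S f ∈ W) → (∀ f ∈ W, V f ∈ W) →
        (∀ g : ℤ_[2] → ℂ, Measurable g → (∃ C : ℝ, ∀ x, ‖g x‖ ≤ C) →
          ∀ f ∈ W, ∀ f' : fibreSpace,
            (∀ᵐ x ∂haarTwoAdic, (f' : ℤ_[2] → seqHilbert) x = g x • (f : ℤ_[2] → seqHilbert) x) → f' ∈ W) →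
        W = ⊥ ∨ W = ⊤)

/-- S0148 from S0150 -/
theorem S0148_of_S0150 (h150 : Stmt150)
    (H : Type*) [NormedAddCommGroup H] [InnerProductSpace ℂ H] [CompleteSpace H]
    [TopologicalSpace.SeparableSpace H] (hH : ¬ FiniteDimensional ℂ H) :
    ∃ T : H →L[ℂ] H, T ≠ 0 ∧
      Tendsto (fun n : ℕ => ‖T ^ n‖ ^ (1 / (n : ℝ))) atTop (𝓝 0) ∧
      ∀ V : Submodule ℂ H, IsClosed (V : Set H) →
        (∀ A : H →L[ℂ] H, A * T = T * A → ∀ v ∈ V, A v ∈ V) → V = ⊥ ∨ V = ⊤ := by
  obtain ⟨β, b, Sfib, Vfib, S, V, -, -, -, hS, -, hS0, -, hSn, -, hVS, -, -, -, -, -, htr⟩ := h150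
  obtain ⟨U⟩ := exists_unitary H hH
  -- conjugation by `U`
  let cj : (fibreSpace →L[ℂ] fibreSpace) → (H →L[ℂ] H) := fun A =>
    (U : fibreSpace →L[ℂ] H) ∘L A ∘L (U.symm : H →L[ℂ] fibreSpace)
  have cj_apply : ∀ A v, cj A v = U (A (U.symm v)) := fun A v => rfl
  have cj_mul : ∀ A B, cj A * cj B = cj (A * B) := by
    intro A B
    ext v
    simp [cj_apply]
  have cj_one : cj 1 = 1 := by
    ext v
    simp [cj_apply]
  have cj_pow : ∀ A (n : ℕ), (cj A) ^ n = cj (A ^ n) := by
    intro A n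
    induction n with
    | zero => simp [cj_one]
    | succ n ih => rw [pow_succ, ih, cj_mul, pow_succ]
  have cj_norm : ∀ A, ‖cj A‖ ≤ ‖A‖ := by
    intro A
    refine ContinuousLinearMap.opNorm_le_bound _ (norm_nonneg _) (fun v => ?_)
    rw [cj_apply, U.norm_map]
    calc ‖A (U.symm v)‖ ≤ ‖A‖ * ‖U.symm v‖ := A.le_opNorm _
      _ = ‖A‖ * ‖v‖ := by rw [U.symm.norm_map]
  refine ⟨cj S, ?_, ?_, ?_⟩
  · intro h0
    apply hS0
    ext1 f
    have := congrArg (fun A : H →L[ℂ] H => A (U f)) h0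
    simp only [cj_apply, U.symm_apply_apply, _root_.zero_apply] at this
    rw [_root_.zero_apply]
    exact (map_eq_zero_iff U U.injective).1 this
  · apply tendsto_root_of_bound
    intro n hn
    rw [cj_pow]
    exact (cj_norm _).trans (hSn n hn)
  · intro Y hYc hY
    let W : Submodule ℂ fibreSpace := Y.comap (U.toLinearEquiv : fibreSpace →ₗ[ℂ] H)
    have hWmem : ∀ f, f ∈ W ↔ U f ∈ Y := fun f => Iff.rfl
    have hWcl : IsClosed (W : Set fibreSpace) := hYc.preimage U.continuous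
    have hinv : ∀ A : fibreSpace →L[ℂ] fibreSpace, A * S = S * A → ∀ f ∈ W, A f ∈ W := by
      intro A hA f hf
      have h1 := hY (cj A) (by rw [cj_mul, cj_mul, hA]) (U f) hf
      rw [cj_apply, U.symm_apply_apply] at h1
      exact h1
    have hW : W = ⊥ ∨ W = ⊤ := by
      refine htr W hWcl (hinv S rfl) (hinv V hVS) ?_
      rintro g hg ⟨C, hC⟩ f hf f' hf'
      obtain ⟨M, hM⟩ := exists_mul g hg C hC
      have hMS : M * S = S * M := by
        ext1 u
        apply Lp.ext
        show ((M (S u) : fibreSpace) : ℤ_[2] → seqHilbert) =ᵐ[haarTwoAdic]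
          ((S (M u) : fibreSpace) : ℤ_[2] → seqHilbert)
        filter_upwards [hM (S u), hS u, hS (M u), hM u] with x h1 h2 h3 h4
        rw [h1, h2, h3, h4, map_smul]
      have h1 : f' = M f := by
        apply Lp.ext
        filter_upwards [hf', hM f] with x h2 h3
        rw [h2, h3]
      rw [h1]
      exact hinv M hMS f hf
    rcases hW with hW | hW
    · left
      rw [Submodule.eq_bot_iff]
      intro v hv
      have h1 : U.symm v ∈ W := by
        rw [hWmem, U.apply_symm_apply]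
        exact hv
      rw [hW, Submodule.mem_bot] at h1
      exact (map_eq_zero_iff U.symm U.symm.injective).1 h1
    · right
      rw [Submodule.eq_top_iff']
      intro v
      have h1 : U.symm v ∈ W := by rw [hW]; exact Submodule.mem_top
      rw [hWmem, U.apply_symm_apply] at h1
      exact h1

end Crest.Agent.R113
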